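import Mathlib

/-! # P043 T2: tables of the finite gadget (FIN), independent version (helper747) -/

namespace Vale.Agent.P043.T2.H747

/-- unique existence from a count -/
theorem eu_of_card {α : Type*} [Fintype α] (p : α → Prop) [DecidablePred p]
    (h : (Finset.univ.filter p).card = 1) : ∃! x, p x := by
  rw [Finset.card_eq_one] at h
  obtain ⟨a, ha⟩ := h
  refine ⟨a, ?_, ?_⟩
  · have : a ∈ Finset.univ.filter p := by rw [ha]; simp
    simpa using this
  · intro y hy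
    have : y ∈ Finset.univ.filter p := by simpa using hy
    rw [ha] at this
    simpa using this

/-- kind of the layer `(k, l)`, `k < 5`, `l < 7` (table in base 32) -/
def kdn (k l : ℕ) : ℕ :=
  (17123237144149079109789107416648894704698834931972747 / 32 ^ (l * 5 + k)) % 32

/-- the kinds which occur -/
def kinds : List ℕ := [0, 1, 2, 4, 6, 10, 11, 12, 13, 14, 15, 16, 20, 30, 31]

theorem kdn_mem : ∀ k < 5, ∀ l < 7, kdn k l ∈ kinds := by decide +kernel

/-- kind of the layer of `(k, l)` -/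
def kd (k : ZMod 25) (l : ZMod 49) : ℕ := kdn (k.val % 5) (l.val % 7)

theorem kd_mem (k : ZMod 25) (l : ZMod 49) : kd k l ∈ kinds :=
  kdn_mem _ (Nat.mod_lt _ (by norm_num)) _ (Nat.mod_lt _ (by norm_num))

/-- cell number -/
def ce (i : ZMod 4) (j : ZMod 9) : ℕ := 3 * (i.val % 2) + j.val % 3

/-- class 0 rank function (0 = not in the set, otherwise rank + 1) -/
def D0 (m : ℕ) (h : ZMod 9) (i : ZMod 4) (j : ZMod 9) : ℕ :=
  if m < 20 then
    if i.val % 2 = m / 10 then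
      if 2 * ((h - j).val / 3) + i.val / 2 < m % 10 then
        (if j.val % 3 + m / 10 = 1 then 2 * ((h - j).val / 3) + i.val / 2 + 1 else 0)
      else (if j.val % 3 = 2 then 2 * ((h - j).val / 3) + i.val / 2 - m % 10 + 1 else 0)
    else 0
  else if m = 20 then 0
  else if m = 30 then (if i.val % 2 = 1 ∧ j.val = 0 then i.val / 2 + 1 else 0)
  else (if i.val % 2 = 0 ∧ j.val = 1 then i.val / 2 + 1 else 0)

/-- class 1 rank function -/
def D1 (m : ℕ) (h : ZMod 4) (i : ZMod 4) (j : ZMod 9) : ℕ :=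
  if m < 20 then 0
  else if m = 20 then
    (if i.val % 2 = (h - i).val / 2 ∧ j.val % 3 = i.val % 2 then j.val / 3 + 1 else 0)
  else if m = 30 then
    (if i.val % 2 = 0 ∧ (j.val = 3 ∨ j.val = 6) then i.val / 2 + 2 * (j.val / 3 - 1) + 1 else 0)
  else
    (if i.val % 2 = 1 ∧ (j.val = 4 ∨ j.val = 7) then i.val / 2 + 2 * (j.val / 3 - 1) + 1 else 0)

/-- the windows of class 0 -/
def X2 (m : ℕ) (j : ZMod 9) : Bool :=
  if m < 20 then true else if m = 20 then false else if m = 30 then decide (j.val ≤ 2)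
  else decide (1 ≤ j.val ∧ j.val ≤ 3)

/-- numbers, class 0 -/
def KK0 (m e : ℕ) : ℕ :=
  if m < 20 then
    (if e / 3 = m / 10 then
      (if e % 3 + m / 10 = 1 then m % 10 else if e % 3 = 2 then 6 - m % 10 else 0) else 0)
  else if m = 20 then 0 else if m = 30 then (if e = 3 then 2 else 0)
  else (if e = 1 then 2 else 0)

/-- numbers, class 1 -/
def KK1 (m e : ℕ) : ℕ :=
  if m < 20 then 0
  else if m = 20 then (if e = 0 ∨ e = 4 then 3 else 0) else if m = 30 then (if e = 0 then 4 else 0)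
  else (if e = 4 then 4 else 0)

theorem F3 : ∀ m ∈ kinds, ∀ (h : ZMod 9) (i : ZMod 4) (j : ZMod 9),
    D0 m h i j ≤ KK0 m (ce i j) := by decide +kernel

theorem F3' : ∀ m ∈ kinds, ∀ (h : ZMod 4) (i : ZMod 4) (j : ZMod 9),
    D1 m h i j ≤ KK1 m (ce i j) := by decide +kernel

/-- windows 2 x 3 : the small index set -/
abbrev J6 : Type := Fin 2 × Fin 3
/-- the large index set -/
abbrev J35 : Type := Fin 5 × Fin 7

theorem F1a : ∀ m ∈ kinds, ∀ (h : ZMod 9) (i : ZMod 4) (j : ZMod 9), X2 m j = true →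
    (Finset.univ.filter fun p : J6 =>
      D0 m (h - ((p.2 : ℕ) : ZMod 9)) (i - ((p.1 : ℕ) : ZMod 4)) (j - ((p.2 : ℕ) : ZMod 9)) ≠ 0).card
        = 1 := by decide +kernel

theorem F1b : ∀ m ∈ kinds, ∀ (h : ZMod 9) (i : ZMod 4) (j : ZMod 9), X2 m j = false →
    ∀ p : J6,
      D0 m (h - ((p.2 : ℕ) : ZMod 9)) (i - ((p.1 : ℕ) : ZMod 4)) (j - ((p.2 : ℕ) : ZMod 9)) = 0 := by
  decide +kernel

theorem F1a' : ∀ m ∈ kinds, ∀ (h : ZMod 4) (i : ZMod 4) (j : ZMod 9), X2 m j = false →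
    (Finset.univ.filter fun p : J6 =>
      D1 m (h - ((p.1 : ℕ) : ZMod 4)) (i - ((p.1 : ℕ) : ZMod 4)) (j - ((p.2 : ℕ) : ZMod 9)) ≠ 0).card
        = 1 := by decide +kernel

theorem F1b' : ∀ m ∈ kinds, ∀ (h : ZMod 4) (i : ZMod 4) (j : ZMod 9), X2 m j = true →
    ∀ p : J6,
      D1 m (h - ((p.1 : ℕ) : ZMod 4)) (i - ((p.1 : ℕ) : ZMod 4)) (j - ((p.2 : ℕ) : ZMod 9)) = 0 := by
  decide +kernel

theorem F2 : ∀ m ∈ kinds, ∀ (h : ZMod 9) (i : ZMod 4) (j : ZMod 9), ∀ n < KK0 m (ce i j),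
    (Finset.univ.filter fun p : J6 =>
      D0 m h (i - 2 * ((p.1 : ℕ) : ZMod 4)) (j - 3 * ((p.2 : ℕ) : ZMod 9)) = n + 1).card
        = 1 := by decide +kernel

theorem F2' : ∀ m ∈ kinds, ∀ (h : ZMod 4) (i : ZMod 4) (j : ZMod 9), ∀ n < KK1 m (ce i j),
    (Finset.univ.filter fun p : J6 =>
      D1 m h (i - 2 * ((p.1 : ℕ) : ZMod 4)) (j - 3 * ((p.2 : ℕ) : ZMod 9)) = n + 1).card
        = 1 := by decide +kernel

end Vale.Agent.P043.T2.H747
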