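import Mathlib
import Vale.Agent.P043.T2.H747.FinTab

/-! # P043 T2: the B families of the finite gadget (FIN), independent version (helper747) -/

namespace Vale.Agent.P043.T2.H747

/-- digit in base 8 -/
def dig (N i : ℕ) : ℕ := (N / 8 ^ i) % 8

/-- first table -/
def XT (e : ℕ) : ℕ :=
  if e = 1 ∨ e = 2 then 1122880 else if e = 3 ∨ e = 5 then 1193680 else 22152

/-- second table -/
def YT (e : ℕ) : ℕ :=
  if e = 0 then 23178476369360224702227641082953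
  else if e = 1 then 20996524114545784060210807793938
  else if e = 2 then 23180247580606766407350998194468
  else if e = 3 then 34022659818418190635909490161224
  else if e = 4 then 17362288662141519134022960302153
  else 34769314467343695373342907596800

/-- rank table -/
def RT (e : ℕ) : ℕ :=
  if e = 0 then 16561321741423396710832818425992
  else if e = 1 then 644234274802844382576182329864
  else if e = 2 then 22352402719405656968809484420744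
  else if e = 3 then 644410972246045748387138244672
  else if e = 4 then 10807379182519875740989402189960
  else 22352750685461385620283564770952

/-- class 0 rank function in the layers -/
def B0 (e : ℕ) (h : ZMod 49) (k : ZMod 25) (l : ZMod 49) : ℕ :=
  if k.val % 5 = dig (XT e) ((h - l).val / 7) ∧
      l.val % 7 = dig (YT e) (5 * ((h - l).val / 7) + k.val / 5) then
    dig (RT e) (5 * ((h - l).val / 7) + k.val / 5) + 1 else 0

/-- class 1 rank function in the layers -/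
def B1 (e : ℕ) (h : ZMod 25) (k : ZMod 25) (l : ZMod 49) : ℕ :=
  if l.val % 7 = dig (XT e) ((h - k).val / 5) ∧
      k.val % 5 = dig (YT e) (7 * ((h - k).val / 5) + l.val / 7) then
    dig (RT e) (7 * ((h - k).val / 5) + l.val / 7) + 1 else 0

theorem XT0_lt : ∀ e ∈ ([1, 2, 3, 5] : List ℕ), ∀ f < 7, dig (XT e) f < 5 := by decide +kernel
theorem YT0_lt : ∀ e ∈ ([1, 2, 3, 5] : List ℕ), ∀ f < 7, ∀ s < 5, dig (YT e) (5 * f + s) < 7 := by
  decide +kernel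
theorem XT1_lt : ∀ e ∈ ([0, 4] : List ℕ), ∀ f < 5, dig (XT e) f < 7 := by decide +kernel
theorem YT1_lt : ∀ e ∈ ([0, 4] : List ℕ), ∀ f < 5, ∀ s < 7, dig (YT e) (7 * f + s) < 5 := by
  decide +kernel

theorem tab1 : ∀ e ∈ ([1, 2, 3, 5] : List ℕ), ∀ k < 5, ∀ l < 7, ∀ n < KK0 (kdn k l) e,
    ∃ f < 7, ∃ s < 5, dig (XT e) f = k ∧ dig (YT e) (5 * f + s) = l ∧
      dig (RT e) (5 * f + s) = n := by decide +kernel

/-- code of an item, class 0 -/
def tri (e f s : ℕ) : ℕ :=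
  dig (XT e) f + 8 * dig (YT e) (5 * f + s) + 64 * dig (RT e) (5 * f + s)
/-- code of an item, class 1 -/
def tri' (e f s : ℕ) : ℕ :=
  dig (XT e) f + 8 * dig (YT e) (7 * f + s) + 64 * dig (RT e) (7 * f + s)

theorem tab2 : ∀ e ∈ ([1, 2, 3, 5] : List ℕ), ∀ f < 7, ∀ s < 5, ∀ f' < 7, ∀ s' < 5,
    tri e f s = tri e f' s' → f = f' ∧ s = s' := by decide +kernel

theorem tab3 : ∀ e ∈ ([1, 2, 3, 5] : List ℕ), ∀ f < 7, ∀ s < 5,
    dig (RT e) (5 * f + s) < KK0 (kdn (dig (XT e) f) (dig (YT e) (5 * f + s))) e := by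
  decide +kernel

theorem tab1' : ∀ e ∈ ([0, 4] : List ℕ), ∀ k < 5, ∀ l < 7, ∀ n < KK1 (kdn k l) e,
    ∃ f < 5, ∃ s < 7, dig (XT e) f = l ∧ dig (YT e) (7 * f + s) = k ∧
      dig (RT e) (7 * f + s) = n := by decide +kernel

theorem tab2' : ∀ e ∈ ([0, 4] : List ℕ), ∀ f < 5, ∀ s < 7, ∀ f' < 5, ∀ s' < 7,
    tri' e f s = tri' e f' s' → f = f' ∧ s = s' := by decide +kernel

theorem tab3' : ∀ e ∈ ([0, 4] : List ℕ), ∀ f < 5, ∀ s < 7,
    dig (RT e) (7 * f + s) < KK1 (kdn (dig (YT e) (7 * f + s)) (dig (XT e) f)) e := by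
  decide +kernel

/-! ## residues -/

theorem res5a : ∀ (k : ZMod 25), ∀ x < 5,
    (Finset.univ.filter fun c : Fin 5 => (k - ((c : ℕ) : ZMod 25)).val % 5 = x).card = 1 := by
  decide +kernel
theorem res7a : ∀ (l : ZMod 49), ∀ x < 7,
    (Finset.univ.filter fun c : Fin 7 => (l - ((c : ℕ) : ZMod 49)).val % 7 = x).card = 1 := by
  decide +kernel
theorem res5b : ∀ (k : ZMod 25), ∀ x < 5,
    (Finset.univ.filter fun c : Fin 5 => (k - 5 * ((c : ℕ) : ZMod 25)).val / 5 = x).card = 1 := by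
  decide +kernel
theorem res7b : ∀ (l : ZMod 49), ∀ x < 7,
    (Finset.univ.filter fun c : Fin 7 => (l - 7 * ((c : ℕ) : ZMod 49)).val / 7 = x).card = 1 := by
  decide +kernel
theorem res5c : ∀ (k : ZMod 25), ∀ x < 5,
    (Finset.univ.filter fun c : Fin 5 => (k + 5 * ((c : ℕ) : ZMod 25)).val / 5 = x).card = 1 := by
  decide +kernel
theorem res7c : ∀ (l : ZMod 49), ∀ x < 7,
    (Finset.univ.filter fun c : Fin 7 => (l + 7 * ((c : ℕ) : ZMod 49)).val / 7 = x).card = 1 := by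
  decide +kernel
theorem inv5 : ∀ (k : ZMod 25) (c : Fin 5), (k - 5 * ((c : ℕ) : ZMod 25)).val % 5 = k.val % 5 := by
  decide +kernel
theorem inv7 : ∀ (l : ZMod 49) (c : Fin 7), (l - 7 * ((c : ℕ) : ZMod 49)).val % 7 = l.val % 7 := by
  decide +kernel
theorem inv2 : ∀ (k : ZMod 4) (c : Fin 2), (k - 2 * ((c : ℕ) : ZMod 4)).val % 2 = k.val % 2 := by
  decide +kernel
theorem inv3 : ∀ (k : ZMod 9) (c : Fin 3), (k - 3 * ((c : ℕ) : ZMod 9)).val % 3 = k.val % 3 := by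
  decide +kernel

theorem kd_inv (k : ZMod 25) (l : ZMod 49) (q : J35) :
    kd (k - 5 * ((q.1 : ℕ) : ZMod 25)) (l - 7 * ((q.2 : ℕ) : ZMod 49)) = kd k l := by
  simp only [kd, inv5, inv7]

theorem ce_inv (i : ZMod 4) (j : ZMod 9) (p : J6) :
    ce (i - 2 * ((p.1 : ℕ) : ZMod 4)) (j - 3 * ((p.2 : ℕ) : ZMod 9)) = ce i j := by
  simp only [ce, inv2, inv3]

theorem div7_lt (x : ZMod 49) : x.val / 7 < 7 := by
  have := ZMod.val_lt x
  omega
theorem div5_lt (x : ZMod 25) : x.val / 5 < 5 := by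
  have := ZMod.val_lt x
  omega

/-- dependent product of unique existences -/
theorem eu_prod {α β : Type*} {P : α → Prop} {Q : α → β → Prop} (h1 : ∃! a, P a)
    (h2 : ∀ a, P a → ∃! b, Q a b) : ∃! q : α × β, P q.1 ∧ Q q.1 q.2 := by
  obtain ⟨a, ha, hu⟩ := h1
  obtain ⟨b, hb, hv⟩ := h2 a ha
  refine ⟨(a, b), ⟨ha, hb⟩, ?_⟩
  rintro ⟨a', b'⟩ ⟨h3, h4⟩
  have h5 : a' = a := hu a' h3
  subst h5
  have h6 : b' = b := hv b' h4
  rw [h6]

/-- the same, the other order -/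
theorem eu_prod' {α β : Type*} {P : β → Prop} {Q : β → α → Prop} (h1 : ∃! b, P b)
    (h2 : ∀ b, P b → ∃! a, Q b a) : ∃! q : α × β, P q.2 ∧ Q q.2 q.1 := by
  obtain ⟨a, ha, hu⟩ := h1
  obtain ⟨b, hb, hv⟩ := h2 a ha
  refine ⟨(b, a), ⟨ha, hb⟩, ?_⟩
  rintro ⟨b', a'⟩ ⟨h3, h4⟩
  have h5 : a' = a := hu a' h3
  subst h5
  have h6 : b' = b := hv b' h4
  rw [h6]

theorem G1 (e : ℕ) (he : e ∈ ([1, 2, 3, 5] : List ℕ)) (h : ZMod 49) (k : ZMod 25) (l : ZMod 49) :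
    ∃! q : J35, B0 e (h - ((q.2 : ℕ) : ZMod 49)) (k - ((q.1 : ℕ) : ZMod 25))
      (l - ((q.2 : ℕ) : ZMod 49)) ≠ 0 := by
  have key : ∀ q : J35, B0 e (h - ((q.2 : ℕ) : ZMod 49)) (k - ((q.1 : ℕ) : ZMod 25))
      (l - ((q.2 : ℕ) : ZMod 49)) ≠ 0 ↔
      ((k - ((q.1 : ℕ) : ZMod 25)).val % 5 = dig (XT e) ((h - l).val / 7) ∧
        (l - ((q.2 : ℕ) : ZMod 49)).val % 7 =
          dig (YT e) (5 * ((h - l).val / 7) + (k - ((q.1 : ℕ) : ZMod 25)).val / 5)) := by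
    intro q
    unfold B0
    have h1 : h - ((q.2 : ℕ) : ZMod 49) - (l - ((q.2 : ℕ) : ZMod 49)) = h - l := by ring
    rw [h1]
    split_ifs with h2
    · simp [h2]
    · simp only [ne_eq, not_true_eq_false, false_iff]
      exact h2
  simp only [key]
  exact eu_prod (P := fun c : Fin 5 => (k - ((c : ℕ) : ZMod 25)).val % 5 =
      dig (XT e) ((h - l).val / 7))
    (Q := fun (c : Fin 5) (d : Fin 7) => (l - ((d : ℕ) : ZMod 49)).val % 7 =
          dig (YT e) (5 * ((h - l).val / 7) + (k - ((c : ℕ) : ZMod 25)).val / 5))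
    (eu_of_card _ (res5a k _ (XT0_lt e he _ (div7_lt _))))
    (fun c _ => eu_of_card _ (res7a l _ (YT0_lt e he _ (div7_lt _) _ (div5_lt _))))

theorem G1' (e : ℕ) (he : e ∈ ([0, 4] : List ℕ)) (h : ZMod 25) (k : ZMod 25) (l : ZMod 49) :
    ∃! q : J35, B1 e (h - ((q.1 : ℕ) : ZMod 25)) (k - ((q.1 : ℕ) : ZMod 25))
      (l - ((q.2 : ℕ) : ZMod 49)) ≠ 0 := by
  have key : ∀ q : J35, B1 e (h - ((q.1 : ℕ) : ZMod 25)) (k - ((q.1 : ℕ) : ZMod 25))
      (l - ((q.2 : ℕ) : ZMod 49)) ≠ 0 ↔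
      ((l - ((q.2 : ℕ) : ZMod 49)).val % 7 = dig (XT e) ((h - k).val / 5) ∧
        (k - ((q.1 : ℕ) : ZMod 25)).val % 5 =
          dig (YT e) (7 * ((h - k).val / 5) + (l - ((q.2 : ℕ) : ZMod 49)).val / 7)) := by
    intro q
    unfold B1
    have h1 : h - ((q.1 : ℕ) : ZMod 25) - (k - ((q.1 : ℕ) : ZMod 25)) = h - k := by ring
    rw [h1]
    split_ifs with h2
    · simp [h2]
    · simp only [ne_eq, not_true_eq_false, false_iff]
      exact h2
  simp only [key]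
  exact eu_prod' (P := fun c : Fin 7 => (l - ((c : ℕ) : ZMod 49)).val % 7 =
      dig (XT e) ((h - k).val / 5))
    (Q := fun (d : Fin 7) (c : Fin 5) => (k - ((c : ℕ) : ZMod 25)).val % 5 =
          dig (YT e) (7 * ((h - k).val / 5) + (l - ((d : ℕ) : ZMod 49)).val / 7))
    (eu_of_card _ (res7a l _ (XT1_lt e he _ (div5_lt _))))
    (fun c _ => eu_of_card _ (res5a k _ (YT1_lt e he _ (div5_lt _) _ (div7_lt _))))

theorem G2 (e : ℕ) (he : e ∈ ([1, 2, 3, 5] : List ℕ)) (h : ZMod 49) (k : ZMod 25) (l : ZMod 49)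
    (n : ℕ) (hn : n < KK0 (kd k l) e) :
    ∃! q : J35, B0 e h (k - 5 * ((q.1 : ℕ) : ZMod 25)) (l - 7 * ((q.2 : ℕ) : ZMod 49)) = n + 1 := by
  obtain ⟨f, hf, s, hs, h1, h2, h3⟩ := tab1 e he (k.val % 5) (Nat.mod_lt _ (by norm_num))
    (l.val % 7) (Nat.mod_lt _ (by norm_num)) n hn
  have key : ∀ q : J35,
      B0 e h (k - 5 * ((q.1 : ℕ) : ZMod 25)) (l - 7 * ((q.2 : ℕ) : ZMod 49)) = n + 1 ↔
      ((k - 5 * ((q.1 : ℕ) : ZMod 25)).val / 5 = s ∧
        ((h - l) + 7 * ((q.2 : ℕ) : ZMod 49)).val / 7 = f) := by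
    intro q
    unfold B0
    have h4 : h - (l - 7 * ((q.2 : ℕ) : ZMod 49)) = (h - l) + 7 * ((q.2 : ℕ) : ZMod 49) := by ring
    rw [h4, inv5, inv7]
    constructor
    · intro h5
      split_ifs at h5 with h6
      obtain ⟨h7, h8⟩ := h6
      have h9 := tab2 e he _ (div7_lt ((h - l) + 7 * ((q.2 : ℕ) : ZMod 49))) _
        (div5_lt (k - 5 * ((q.1 : ℕ) : ZMod 25))) f hf s hs
        (by unfold tri; rw [← h7, h1, ← h8, h2, h3]; omega)
      exact ⟨h9.2, h9.1⟩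
    · rintro ⟨h5, h6⟩
      rw [h5, h6, if_pos ⟨h1.symm, h2.symm⟩, h3]
  simp only [key]
  exact eu_prod (P := fun c : Fin 5 => (k - 5 * ((c : ℕ) : ZMod 25)).val / 5 = s)
    (Q := fun (_ : Fin 5) (d : Fin 7) => ((h - l) + 7 * ((d : ℕ) : ZMod 49)).val / 7 = f)
    (eu_of_card _ (res5b k _ hs)) (fun c _ => eu_of_card _ (res7c _ _ hf))

theorem G2' (e : ℕ) (he : e ∈ ([0, 4] : List ℕ)) (h : ZMod 25) (k : ZMod 25) (l : ZMod 49)
    (n : ℕ) (hn : n < KK1 (kd k l) e) :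
    ∃! q : J35, B1 e h (k - 5 * ((q.1 : ℕ) : ZMod 25)) (l - 7 * ((q.2 : ℕ) : ZMod 49)) = n + 1 := by
  obtain ⟨f, hf, s, hs, h1, h2, h3⟩ := tab1' e he (k.val % 5) (Nat.mod_lt _ (by norm_num))
    (l.val % 7) (Nat.mod_lt _ (by norm_num)) n hn
  have key : ∀ q : J35,
      B1 e h (k - 5 * ((q.1 : ℕ) : ZMod 25)) (l - 7 * ((q.2 : ℕ) : ZMod 49)) = n + 1 ↔
      (((h - k) + 5 * ((q.1 : ℕ) : ZMod 25)).val / 5 = f ∧
        (l - 7 * ((q.2 : ℕ) : ZMod 49)).val / 7 = s) := by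
    intro q
    unfold B1
    have h4 : h - (k - 5 * ((q.1 : ℕ) : ZMod 25)) = (h - k) + 5 * ((q.1 : ℕ) : ZMod 25) := by ring
    rw [h4, inv5, inv7]
    constructor
    · intro h5
      split_ifs at h5 with h6
      obtain ⟨h7, h8⟩ := h6
      have h9 := tab2' e he _ (div5_lt ((h - k) + 5 * ((q.1 : ℕ) : ZMod 25))) _
        (div7_lt (l - 7 * ((q.2 : ℕ) : ZMod 49))) f hf s hs
        (by unfold tri'; rw [← h7, h1, ← h8, h2, h3]; omega)
      exact ⟨h9.1, h9.2⟩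
    · rintro ⟨h5, h6⟩
      rw [h5, h6, if_pos ⟨h1.symm, h2.symm⟩, h3]
  simp only [key]
  exact eu_prod (P := fun c : Fin 5 => ((h - k) + 5 * ((c : ℕ) : ZMod 25)).val / 5 = f)
    (Q := fun (_ : Fin 5) (d : Fin 7) => (l - 7 * ((d : ℕ) : ZMod 49)).val / 7 = s)
    (eu_of_card _ (res5c _ _ hf)) (fun c _ => eu_of_card _ (res7b _ _ hs))

theorem G3 (e : ℕ) (he : e ∈ ([1, 2, 3, 5] : List ℕ)) (h : ZMod 49) (k : ZMod 25) (l : ZMod 49) :
    B0 e h k l ≤ KK0 (kd k l) e := by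
  unfold B0
  split_ifs with h1
  · have h2 := tab3 e he _ (div7_lt (h - l)) _ (div5_lt k)
    rw [← h1.1, ← h1.2] at h2
    exact h2
  · exact Nat.zero_le _

theorem G3' (e : ℕ) (he : e ∈ ([0, 4] : List ℕ)) (h : ZMod 25) (k : ZMod 25) (l : ZMod 49) :
    B1 e h k l ≤ KK1 (kd k l) e := by
  unfold B1
  split_ifs with h1
  · have h2 := tab3' e he _ (div5_lt (h - k)) _ (div7_lt l)
    rw [← h1.1, ← h1.2] at h2
    exact h2
  · exact Nat.zero_le _

end Vale.Agent.P043.T2.H747
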