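import Mathlib
import Vale.Agent.P043.T2.Defs
import Vale.Agent.P043.T2.H747.FinB

/-! # P043 T2: the finite gadget (FIN) : proof of `StFin`, independent version (helper747) -/

namespace Vale.Agent.P043.T2.H747

open Vale.Agent.P043.T2

/-- class 0 set -/
def A0 : Set (K × K) := {p |
  D0 (kd p.2.2.2.1 p.2.2.2.2) p.1.2.1 p.2.1 p.2.2.1 ≠ 0 ∧
  B0 (ce p.2.1 p.2.2.1) p.1.2.2.2 p.2.2.2.1 p.2.2.2.2 =
    D0 (kd p.2.2.2.1 p.2.2.2.2) p.1.2.1 p.2.1 p.2.2.1}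

/-- class 1 set -/
def A1 : Set (K × K) := {p |
  D1 (kd p.2.2.2.1 p.2.2.2.2) p.1.1 p.2.1 p.2.2.1 ≠ 0 ∧
  B1 (ce p.2.1 p.2.2.1) p.1.2.2.1 p.2.2.2.1 p.2.2.2.2 =
    D1 (kd p.2.2.2.1 p.2.2.2.2) p.1.1 p.2.1 p.2.2.1}

/-- the windows of class 0 -/
def XX (τ : Bool) : Set K :=
  {r | if τ then X2 (kd r.2.2.1 r.2.2.2) r.2.1 = true else ce r.1 r.2.1 ∈ ([1, 2, 3, 5] : List ℕ)}

theorem kap_row_true (i : Ix) : kap (row true i) =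
    (((i.1 : ℕ) : ZMod 4), ((i.2.1 : ℕ) : ZMod 9), 5 * ((i.2.2.1 : ℕ) : ZMod 25),
      7 * ((i.2.2.2 : ℕ) : ZMod 49)) := by
  have a1 : (11025 : ZMod 4) = 1 := by decide
  have a2 : (34300 : ZMod 4) = 0 := by decide
  have a3 : (15876 : ZMod 4) = 0 := by decide
  have a4 : (27000 : ZMod 4) = 0 := by decide
  have b1 : (11025 : ZMod 9) = 0 := by decide
  have b2 : (34300 : ZMod 9) = 1 := by decide
  have b3 : (15876 : ZMod 9) = 0 := by decide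
  have b4 : (27000 : ZMod 9) = 0 := by decide
  have c1 : (11025 : ZMod 25) = 0 := by decide
  have c2 : (34300 : ZMod 25) = 0 := by decide
  have c3 : (15876 : ZMod 25) = 1 := by decide
  have c4 : (27000 : ZMod 25) = 0 := by decide
  have d1 : (11025 : ZMod 49) = 0 := by decide
  have d2 : (34300 : ZMod 49) = 0 := by decide
  have d3 : (15876 : ZMod 49) = 0 := by decide
  have d4 : (27000 : ZMod 49) = 1 := by decide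
  simp only [kap, row, if_true]
  push_cast
  rw [a1, a2, a3, a4, b1, b2, b3, b4, c1, c2, c3, c4, d1, d2, d3, d4]
  simp

theorem kap_row_false (i : Ix) : kap (row false i) =
    (2 * ((i.1 : ℕ) : ZMod 4), 3 * ((i.2.1 : ℕ) : ZMod 9), ((i.2.2.1 : ℕ) : ZMod 25),
      ((i.2.2.2 : ℕ) : ZMod 49)) := by
  have a1 : (11025 : ZMod 4) = 1 := by decide
  have a2 : (34300 : ZMod 4) = 0 := by decide
  have a3 : (15876 : ZMod 4) = 0 := by decide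
  have a4 : (27000 : ZMod 4) = 0 := by decide
  have b1 : (11025 : ZMod 9) = 0 := by decide
  have b2 : (34300 : ZMod 9) = 1 := by decide
  have b3 : (15876 : ZMod 9) = 0 := by decide
  have b4 : (27000 : ZMod 9) = 0 := by decide
  have c1 : (11025 : ZMod 25) = 0 := by decide
  have c2 : (34300 : ZMod 25) = 0 := by decide
  have c3 : (15876 : ZMod 25) = 1 := by decide
  have c4 : (27000 : ZMod 25) = 0 := by decide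
  have d1 : (11025 : ZMod 49) = 0 := by decide
  have d2 : (34300 : ZMod 49) = 0 := by decide
  have d3 : (15876 : ZMod 49) = 0 := by decide
  have d4 : (27000 : ZMod 49) = 1 := by decide
  simp only [kap, row, Bool.false_eq_true, if_false]
  push_cast
  rw [a1, a2, a3, a4, b1, b2, b3, b4, c1, c2, c3, c4, d1, d2, d3, d4]
  simp

theorem mem0_true (h r : K) (i : Ix) : (h - sh true i, r - kap (row true i)) ∈ A0 ↔
    (D0 (kd r.2.2.1 r.2.2.2) (h.2.1 - ((i.2.1 : ℕ) : ZMod 9)) (r.1 - ((i.1 : ℕ) : ZMod 4))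
        (r.2.1 - ((i.2.1 : ℕ) : ZMod 9)) ≠ 0 ∧
      B0 (ce (r.1 - ((i.1 : ℕ) : ZMod 4)) (r.2.1 - ((i.2.1 : ℕ) : ZMod 9))) h.2.2.2
          (r.2.2.1 - 5 * ((i.2.2.1 : ℕ) : ZMod 25)) (r.2.2.2 - 7 * ((i.2.2.2 : ℕ) : ZMod 49)) =
        D0 (kd r.2.2.1 r.2.2.2) (h.2.1 - ((i.2.1 : ℕ) : ZMod 9)) (r.1 - ((i.1 : ℕ) : ZMod 4))
          (r.2.1 - ((i.2.1 : ℕ) : ZMod 9))) := by
  rw [kap_row_true]
  have h1 := kd_inv r.2.2.1 r.2.2.2 i.2.2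
  simp only [A0, sh, Set.mem_setOf_eq, if_true, Prod.fst_sub, Prod.snd_sub, sub_zero, h1]

theorem mem1_true (h r : K) (i : Ix) : (h - sh true i, r - kap (row true i)) ∈ A1 ↔
    (D1 (kd r.2.2.1 r.2.2.2) (h.1 - ((i.1 : ℕ) : ZMod 4)) (r.1 - ((i.1 : ℕ) : ZMod 4))
        (r.2.1 - ((i.2.1 : ℕ) : ZMod 9)) ≠ 0 ∧
      B1 (ce (r.1 - ((i.1 : ℕ) : ZMod 4)) (r.2.1 - ((i.2.1 : ℕ) : ZMod 9))) h.2.2.1
          (r.2.2.1 - 5 * ((i.2.2.1 : ℕ) : ZMod 25)) (r.2.2.2 - 7 * ((i.2.2.2 : ℕ) : ZMod 49)) =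
        D1 (kd r.2.2.1 r.2.2.2) (h.1 - ((i.1 : ℕ) : ZMod 4)) (r.1 - ((i.1 : ℕ) : ZMod 4))
          (r.2.1 - ((i.2.1 : ℕ) : ZMod 9))) := by
  rw [kap_row_true]
  have h1 := kd_inv r.2.2.1 r.2.2.2 i.2.2
  simp only [A1, sh, Set.mem_setOf_eq, if_true, Prod.fst_sub, Prod.snd_sub, sub_zero, h1]

theorem mem0_false (h r : K) (i : Ix) : (h - sh false i, r - kap (row false i)) ∈ A0 ↔
    (B0 (ce r.1 r.2.1) (h.2.2.2 - ((i.2.2.2 : ℕ) : ZMod 49))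
          (r.2.2.1 - ((i.2.2.1 : ℕ) : ZMod 25)) (r.2.2.2 - ((i.2.2.2 : ℕ) : ZMod 49)) ≠ 0 ∧
      D0 (kd (r.2.2.1 - ((i.2.2.1 : ℕ) : ZMod 25)) (r.2.2.2 - ((i.2.2.2 : ℕ) : ZMod 49)))
          h.2.1 (r.1 - 2 * ((i.1 : ℕ) : ZMod 4)) (r.2.1 - 3 * ((i.2.1 : ℕ) : ZMod 9)) =
        B0 (ce r.1 r.2.1) (h.2.2.2 - ((i.2.2.2 : ℕ) : ZMod 49))
          (r.2.2.1 - ((i.2.2.1 : ℕ) : ZMod 25)) (r.2.2.2 - ((i.2.2.2 : ℕ) : ZMod 49))) := by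
  rw [kap_row_false]
  have h1 := ce_inv r.1 r.2.1 (i.1, i.2.1)
  simp only at h1
  simp only [A0, sh, Set.mem_setOf_eq, Bool.false_eq_true, if_false, Prod.fst_sub, Prod.snd_sub,
    sub_zero, h1]
  constructor
  · rintro ⟨h2, h3⟩
    exact ⟨by rw [h3]; exact h2, h3.symm⟩
  · rintro ⟨h2, h3⟩
    exact ⟨by rw [h3]; exact h2, h3.symm⟩

theorem mem1_false (h r : K) (i : Ix) : (h - sh false i, r - kap (row false i)) ∈ A1 ↔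
    (B1 (ce r.1 r.2.1) (h.2.2.1 - ((i.2.2.1 : ℕ) : ZMod 25))
          (r.2.2.1 - ((i.2.2.1 : ℕ) : ZMod 25)) (r.2.2.2 - ((i.2.2.2 : ℕ) : ZMod 49)) ≠ 0 ∧
      D1 (kd (r.2.2.1 - ((i.2.2.1 : ℕ) : ZMod 25)) (r.2.2.2 - ((i.2.2.2 : ℕ) : ZMod 49)))
          h.1 (r.1 - 2 * ((i.1 : ℕ) : ZMod 4)) (r.2.1 - 3 * ((i.2.1 : ℕ) : ZMod 9)) =
        B1 (ce r.1 r.2.1) (h.2.2.1 - ((i.2.2.1 : ℕ) : ZMod 25))
          (r.2.2.1 - ((i.2.2.1 : ℕ) : ZMod 25)) (r.2.2.2 - ((i.2.2.2 : ℕ) : ZMod 49))) := by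
  rw [kap_row_false]
  have h1 := ce_inv r.1 r.2.1 (i.1, i.2.1)
  simp only at h1
  simp only [A1, sh, Set.mem_setOf_eq, Bool.false_eq_true, if_false, Prod.fst_sub, Prod.snd_sub,
    sub_zero, h1]
  constructor
  · rintro ⟨h2, h3⟩
    exact ⟨by rw [h3]; exact h2, h3.symm⟩
  · rintro ⟨h2, h3⟩
    exact ⟨by rw [h3]; exact h2, h3.symm⟩

theorem eu4 {P : J6 → Prop} {Q : J6 → J35 → Prop} (h1 : ∃! p, P p)
    (h2 : ∀ p, P p → ∃! q, Q p q) : ∃! i : Ix, P (i.1, i.2.1) ∧ Q (i.1, i.2.1) i.2.2 := by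
  obtain ⟨a, ha, hu⟩ := h1
  obtain ⟨b, hb, hv⟩ := h2 a ha
  refine ⟨(a.1, a.2, b), ⟨ha, hb⟩, ?_⟩
  rintro ⟨a1, a2, b'⟩ ⟨h3, h4⟩
  have h5 : (a1, a2) = a := hu _ h3
  subst h5
  have h6 : b' = b := hv b' h4
  rw [h6]

theorem eu4' {P : J35 → Prop} {Q : J35 → J6 → Prop} (h1 : ∃! p, P p)
    (h2 : ∀ p, P p → ∃! q, Q p q) : ∃! i : Ix, P i.2.2 ∧ Q i.2.2 (i.1, i.2.1) := by
  obtain ⟨a, ha, hu⟩ := h1
  obtain ⟨b, hb, hv⟩ := h2 a ha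
  refine ⟨(b.1, b.2, a), ⟨ha, hb⟩, ?_⟩
  rintro ⟨b1, b2, a'⟩ ⟨h3, h4⟩
  have h5 : a' = a := hu a' h3
  subst h5
  have h6 : (b1, b2) = b := hv _ h4
  subst h6
  rfl

theorem ce_lt (i : ZMod 4) (j : ZMod 9) : ce i j < 6 := by
  unfold ce
  omega

theorem KK0_ne : ∀ m ∈ kinds, ∀ e < 6, KK0 m e ≠ 0 → e ∈ ([1, 2, 3, 5] : List ℕ) := by
  decide +kernel

theorem KK1_ne : ∀ m ∈ kinds, ∀ e < 6, KK1 m e ≠ 0 → e ∈ ([0, 4] : List ℕ) := by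
  decide +kernel

theorem D0_ne {m : ℕ} (hm : m ∈ kinds) (h : ZMod 9) (i : ZMod 4) (j : ZMod 9)
    (h0 : D0 m h i j ≠ 0) : ce i j ∈ ([1, 2, 3, 5] : List ℕ) :=
  KK0_ne m hm _ (ce_lt i j) (by have := F3 m hm h i j; omega)

theorem D1_ne {m : ℕ} (hm : m ∈ kinds) (h : ZMod 4) (i : ZMod 4) (j : ZMod 9)
    (h0 : D1 m h i j ≠ 0) : ce i j ∈ ([0, 4] : List ℕ) :=
  KK1_ne m hm _ (ce_lt i j) (by have := F3' m hm h i j; omega)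

theorem cls_or : ∀ e < 6, e ∉ ([1, 2, 3, 5] : List ℕ) → e ∈ ([0, 4] : List ℕ) := by decide

theorem cls_not : ∀ e ∈ ([0, 4] : List ℕ), e ∉ ([1, 2, 3, 5] : List ℕ) := by decide

theorem t0_yes (h r : K) (hr : r ∈ XX true) :
    ∃! i : Ix, (h - sh true i, r - kap (row true i)) ∈ A0 := by
  simp only [mem0_true]
  have hm := kd_mem r.2.2.1 r.2.2.2
  have hX : X2 (kd r.2.2.1 r.2.2.2) r.2.1 = true := by simpa [XX] using hr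
  refine eu4 (P := fun p : J6 => D0 (kd r.2.2.1 r.2.2.2) (h.2.1 - ((p.2 : ℕ) : ZMod 9))
      (r.1 - ((p.1 : ℕ) : ZMod 4)) (r.2.1 - ((p.2 : ℕ) : ZMod 9)) ≠ 0)
    (Q := fun (p : J6) (q : J35) =>
      B0 (ce (r.1 - ((p.1 : ℕ) : ZMod 4)) (r.2.1 - ((p.2 : ℕ) : ZMod 9))) h.2.2.2
          (r.2.2.1 - 5 * ((q.1 : ℕ) : ZMod 25)) (r.2.2.2 - 7 * ((q.2 : ℕ) : ZMod 49)) =
        D0 (kd r.2.2.1 r.2.2.2) (h.2.1 - ((p.2 : ℕ) : ZMod 9)) (r.1 - ((p.1 : ℕ) : ZMod 4))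
          (r.2.1 - ((p.2 : ℕ) : ZMod 9)))
    (eu_of_card _ (F1a _ hm _ _ _ hX)) ?_
  intro p hp
  have h3 := F3 _ hm (h.2.1 - ((p.2 : ℕ) : ZMod 9)) (r.1 - ((p.1 : ℕ) : ZMod 4))
    (r.2.1 - ((p.2 : ℕ) : ZMod 9))
  have he := D0_ne hm _ _ _ hp
  obtain ⟨n, hn⟩ := Nat.exists_eq_succ_of_ne_zero hp
  simp only [hn] at h3 ⊢
  exact G2 _ he _ _ _ n (by omega)

theorem t1_yes (h r : K) (hr : r ∉ XX true) :
    ∃! i : Ix, (h - sh true i, r - kap (row true i)) ∈ A1 := by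
  simp only [mem1_true]
  have hm := kd_mem r.2.2.1 r.2.2.2
  have hX : X2 (kd r.2.2.1 r.2.2.2) r.2.1 = false := by simpa [XX] using hr
  refine eu4 (P := fun p : J6 => D1 (kd r.2.2.1 r.2.2.2) (h.1 - ((p.1 : ℕ) : ZMod 4))
      (r.1 - ((p.1 : ℕ) : ZMod 4)) (r.2.1 - ((p.2 : ℕ) : ZMod 9)) ≠ 0)
    (Q := fun (p : J6) (q : J35) =>
      B1 (ce (r.1 - ((p.1 : ℕ) : ZMod 4)) (r.2.1 - ((p.2 : ℕ) : ZMod 9))) h.2.2.1
          (r.2.2.1 - 5 * ((q.1 : ℕ) : ZMod 25)) (r.2.2.2 - 7 * ((q.2 : ℕ) : ZMod 49)) =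
        D1 (kd r.2.2.1 r.2.2.2) (h.1 - ((p.1 : ℕ) : ZMod 4)) (r.1 - ((p.1 : ℕ) : ZMod 4))
          (r.2.1 - ((p.2 : ℕ) : ZMod 9)))
    (eu_of_card _ (F1a' _ hm _ _ _ hX)) ?_
  intro p hp
  have h3 := F3' _ hm (h.1 - ((p.1 : ℕ) : ZMod 4)) (r.1 - ((p.1 : ℕ) : ZMod 4))
    (r.2.1 - ((p.2 : ℕ) : ZMod 9))
  have he := D1_ne hm _ _ _ hp
  obtain ⟨n, hn⟩ := Nat.exists_eq_succ_of_ne_zero hp
  simp only [hn] at h3 ⊢
  exact G2' _ he _ _ _ n (by omega)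

theorem f0_yes (h r : K) (hr : r ∈ XX false) :
    ∃! i : Ix, (h - sh false i, r - kap (row false i)) ∈ A0 := by
  simp only [mem0_false]
  have he : ce r.1 r.2.1 ∈ ([1, 2, 3, 5] : List ℕ) := by simpa [XX] using hr
  refine eu4' (P := fun q : J35 => B0 (ce r.1 r.2.1) (h.2.2.2 - ((q.2 : ℕ) : ZMod 49))
          (r.2.2.1 - ((q.1 : ℕ) : ZMod 25)) (r.2.2.2 - ((q.2 : ℕ) : ZMod 49)) ≠ 0)
    (Q := fun (q : J35) (p : J6) =>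
      D0 (kd (r.2.2.1 - ((q.1 : ℕ) : ZMod 25)) (r.2.2.2 - ((q.2 : ℕ) : ZMod 49)))
          h.2.1 (r.1 - 2 * ((p.1 : ℕ) : ZMod 4)) (r.2.1 - 3 * ((p.2 : ℕ) : ZMod 9)) =
        B0 (ce r.1 r.2.1) (h.2.2.2 - ((q.2 : ℕ) : ZMod 49))
          (r.2.2.1 - ((q.1 : ℕ) : ZMod 25)) (r.2.2.2 - ((q.2 : ℕ) : ZMod 49)))
    (G1 _ he _ _ _) ?_
  intro q hq
  have h3 := G3 _ he (h.2.2.2 - ((q.2 : ℕ) : ZMod 49)) (r.2.2.1 - ((q.1 : ℕ) : ZMod 25))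
    (r.2.2.2 - ((q.2 : ℕ) : ZMod 49))
  obtain ⟨n, hn⟩ := Nat.exists_eq_succ_of_ne_zero hq
  simp only [hn] at h3 ⊢
  exact eu_of_card _ (F2 _ (kd_mem _ _) _ _ _ n (by omega))

theorem f1_yes (h r : K) (hr : r ∉ XX false) :
    ∃! i : Ix, (h - sh false i, r - kap (row false i)) ∈ A1 := by
  simp only [mem1_false]
  have he' : ce r.1 r.2.1 ∉ ([1, 2, 3, 5] : List ℕ) := by simpa [XX] using hr
  have he := cls_or _ (ce_lt _ _) he'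
  refine eu4' (P := fun q : J35 => B1 (ce r.1 r.2.1) (h.2.2.1 - ((q.1 : ℕ) : ZMod 25))
          (r.2.2.1 - ((q.1 : ℕ) : ZMod 25)) (r.2.2.2 - ((q.2 : ℕ) : ZMod 49)) ≠ 0)
    (Q := fun (q : J35) (p : J6) =>
      D1 (kd (r.2.2.1 - ((q.1 : ℕ) : ZMod 25)) (r.2.2.2 - ((q.2 : ℕ) : ZMod 49)))
          h.1 (r.1 - 2 * ((p.1 : ℕ) : ZMod 4)) (r.2.1 - 3 * ((p.2 : ℕ) : ZMod 9)) =
        B1 (ce r.1 r.2.1) (h.2.2.1 - ((q.1 : ℕ) : ZMod 25))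
          (r.2.2.1 - ((q.1 : ℕ) : ZMod 25)) (r.2.2.2 - ((q.2 : ℕ) : ZMod 49)))
    (G1' _ he _ _ _) ?_
  intro q hq
  have h3 := G3' _ he (h.2.2.1 - ((q.1 : ℕ) : ZMod 25)) (r.2.2.1 - ((q.1 : ℕ) : ZMod 25))
    (r.2.2.2 - ((q.2 : ℕ) : ZMod 49))
  obtain ⟨n, hn⟩ := Nat.exists_eq_succ_of_ne_zero hq
  simp only [hn] at h3 ⊢
  exact eu_of_card _ (F2' _ (kd_mem _ _) _ _ _ n (by omega))

theorem t0_no (h r : K) (hr : r ∉ XX true) (i : Ix) :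
    (h - sh true i, r - kap (row true i)) ∉ A0 := by
  rw [mem0_true]
  have hX : X2 (kd r.2.2.1 r.2.2.2) r.2.1 = false := by simpa [XX] using hr
  rintro ⟨h1, -⟩
  exact h1 (F1b _ (kd_mem _ _) _ _ _ hX (i.1, i.2.1))

theorem t1_no (h r : K) (hr : r ∈ XX true) (i : Ix) :
    (h - sh true i, r - kap (row true i)) ∉ A1 := by
  rw [mem1_true]
  have hX : X2 (kd r.2.2.1 r.2.2.2) r.2.1 = true := by simpa [XX] using hr
  rintro ⟨h1, -⟩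
  exact h1 (F1b' _ (kd_mem _ _) _ _ _ hX (i.1, i.2.1))

theorem f0_no (h r : K) (hr : r ∉ XX false) (i : Ix) :
    (h - sh false i, r - kap (row false i)) ∉ A0 := by
  rw [mem0_false]
  have he' : ce r.1 r.2.1 ∉ ([1, 2, 3, 5] : List ℕ) := by simpa [XX] using hr
  rintro ⟨h1, h2⟩
  rw [← h2] at h1
  have h3 := D0_ne (kd_mem _ _) _ _ _ h1
  have h4 := ce_inv r.1 r.2.1 (i.1, i.2.1)
  simp only at h4
  rw [h4] at h3
  exact he' h3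

theorem f1_no (h r : K) (hr : r ∈ XX false) (i : Ix) :
    (h - sh false i, r - kap (row false i)) ∉ A1 := by
  rw [mem1_false]
  have he' : ce r.1 r.2.1 ∈ ([1, 2, 3, 5] : List ℕ) := by simpa [XX] using hr
  rintro ⟨h1, h2⟩
  rw [← h2] at h1
  have h3 := D1_ne (kd_mem _ _) _ _ _ h1
  have h4 := ce_inv r.1 r.2.1 (i.1, i.2.1)
  simp only at h4
  rw [h4] at h3
  exact cls_not _ h3 he'

/-- **FIN**: the finite gadget. -/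
theorem st_fin : Vale.Agent.P043.T2.StFin := by
  refine ⟨A0, A1, XX, ?_, ?_, ?_, ?_, ?_, ?_⟩
  · intro h r
    simp [A0, s0]
  · intro h r
    simp [A1, s1]
  · intro τ h r hr
    cases τ
    · exact f0_yes h r hr
    · exact t0_yes h r hr
  · intro τ h r hr i
    cases τ
    · exact f0_no h r hr i
    · exact t0_no h r hr i
  · intro τ h r hr
    cases τ
    · exact f1_yes h r hr
    · exact t1_yes h r hr
  · intro τ h r hr i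
    cases τ
    · exact f1_no h r hr i
    · exact t1_no h r hr i

end Vale.Agent.P043.T2.H747
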